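import Crest.Agent.R18.Kum
import Crest.Agent.R18.Val

/-! Row 18 block W1: the equivariant character attached to an eigen-unit. -/

set_option autoImplicit false
set_option linter.unusedSectionVars false
open scoped Pointwise NumberField
open IsDedekindDomain Crest.NumberTheoryR

namespace Crest.Agent.R18

theorem w1c_grp {G R : Type*} [Group G] [CommRing R] {U U' C : Subgroup G} (hU' : U' ≤ U)
    (hn : ∀ δ ∈ U, ∀ g ∈ C, δ * g * δ⁻¹ ∈ C) (hc : ∀ δ ∈ U, ∀ δ' ∈ U, δ * δ' * δ⁻¹ * δ'⁻¹ ∈ C)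
    {ξ r : G → R} (hadd : ∀ g ∈ C, ∀ h ∈ C, ξ (g * h) = ξ g + ξ h) (hr : ∀ g ∈ U', r g = 1)
    (hξ : ∀ δ ∈ U, ∀ g ∈ C, ξ (δ * g * δ⁻¹) = r δ * ξ g) {δ₀ : G} (h₀ : δ₀ ∈ U) :
    (∀ g ∈ U', ∀ h ∈ U', ξ (δ₀ * (g * h) * δ₀⁻¹ * (g * h)⁻¹) =
      ξ (δ₀ * g * δ₀⁻¹ * g⁻¹) + ξ (δ₀ * h * δ₀⁻¹ * h⁻¹)) ∧
    ∀ δ ∈ U, ∀ g ∈ U', ξ (δ₀ * (δ * g * δ⁻¹) * δ₀⁻¹ * (δ * g * δ⁻¹)⁻¹) = r δ * ξ (δ₀ * g * δ₀⁻¹ * g⁻¹) := by
  have h1 : ξ 1 = 0 := by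
    have := hadd 1 C.one_mem 1 C.one_mem
    rw [mul_one] at this
    exact left_eq_add.1 this
  refine ⟨fun g hg h hh => ?_, fun δ hδ g hg => ?_⟩
  · have e : δ₀ * (g * h) * δ₀⁻¹ * (g * h)⁻¹ = (δ₀ * g * δ₀⁻¹ * g⁻¹) * (g * (δ₀ * h * δ₀⁻¹ * h⁻¹) * g⁻¹) := by group
    have c2 := hc δ₀ h₀ h (hU' hh)
    rw [e, hadd _ (hc δ₀ h₀ g (hU' hg)) _ (hn g (hU' hg) _ c2), hξ g (hU' hg) _ c2, hr g hg, one_mul]
  · have c0 := hc δ₀⁻¹ (U.inv_mem h₀) δ⁻¹ (U.inv_mem hδ)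
    set c := δ₀⁻¹ * δ⁻¹ * δ₀⁻¹⁻¹ * δ⁻¹⁻¹ with hcd
    have c1 := hn g (hU' hg) _ (C.inv_mem c0)
    have c2 := C.mul_mem c0 c1
    have c3 := hn δ₀ h₀ _ c2
    have c4 := hc δ₀ h₀ g (hU' hg)
    have e : δ₀ * (δ * g * δ⁻¹) * δ₀⁻¹ * (δ * g * δ⁻¹)⁻¹ =
        δ * ((δ₀ * (c * (g * c⁻¹ * g⁻¹)) * δ₀⁻¹) * (δ₀ * g * δ₀⁻¹ * g⁻¹)) * δ⁻¹ := by rw [hcd]; group
    rw [e, hξ δ hδ _ (C.mul_mem c3 c4), hadd _ c3 _ c4, hξ δ₀ h₀ _ c2, hadd _ c0 _ c1, hξ g (hU' hg) _ (C.inv_mem c0),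
      hr g hg, one_mul, ← hadd _ c0 _ (C.inv_mem c0), mul_inv_cancel, h1, mul_zero, zero_add]

variable {F E : Type*} [Field F] [NumberField F] [Field E] [Algebra F E] [IsGalois F E]

theorem w1c_pow (δ : E ≃ₐ[F] E) {ε : E} (h : IsOfFinOrder ε) : ∃ a : ℕ, δ ε = ε ^ a := by
  have := NeZero.mk h.orderOf_pos.ne'
  obtain ⟨a, -, ha⟩ := (IsPrimitiveRoot.orderOf ε).eq_pow_of_pow_eq_one (ξ := δ ε)
    (by rw [← map_pow, pow_orderOf_eq_one, map_one])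
  exact ⟨a, ha.symm⟩

theorem w1c_comm (δ δ' : E ≃ₐ[F] E) {ε : E} (h : IsOfFinOrder ε) : (δ * δ' * δ⁻¹ * δ'⁻¹) ε = ε := by
  have key : ∀ {e : E}, IsOfFinOrder e → δ (δ' e) = δ' (δ e) := by
    intro e he
    obtain ⟨a, ha⟩ := w1c_pow δ he
    obtain ⟨b, hb⟩ := w1c_pow δ' he
    rw [hb, map_pow, ha, map_pow, hb, ← pow_mul, ← pow_mul, mul_comm]
  have h2 : IsOfFinOrder (δ⁻¹ (δ'⁻¹ ε)) :=
    MonoidHom.isOfFinOrder (δ⁻¹ : E ≃ₐ[F] E).toAlgHom.toMonoidHom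
      (MonoidHom.isOfFinOrder (δ'⁻¹ : E ≃ₐ[F] E).toAlgHom.toMonoidHom h)
  simp only [AlgEquiv.mul_apply]
  rw [key h2]
  simp

theorem w1c_ne {ε : E} (h : IsOfFinOrder ε) : ε ≠ 0 := h.isUnit.ne_zero

section
variable {n : ℕ} [NeZero n] {μ : E} (hμ : IsPrimitiveRoot μ n)

/-- `t ↦ μ ^ t` -/
noncomputable abbrev w1e : AddChar (ZMod n) E := AddChar.zmodChar n hμ.pow_eq_one

theorem w1e_inj {t t' : ZMod n} (h : w1e hμ t = w1e hμ t') : t = t' :=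
  ZMod.val_injective n (hμ.pow_inj (ZMod.val_lt _) (ZMod.val_lt _) h)

theorem w1e_pow (t : ZMod n) (a : ℕ) : w1e hμ t ^ a = w1e hμ (a * t) := by
  rw [← AddChar.map_nsmul_eq_pow, nsmul_eq_mul]

theorem w1e_map (g : E ≃ₐ[F] E) (t : ZMod n) : g (w1e hμ t) = w1e hμ ((hμ.autToPow F g : ZMod n) * t) := by
  rw [AddChar.zmodChar_apply, map_pow, ← hμ.autToPow_spec F g, ← AddChar.zmodChar_apply hμ.pow_eq_one, w1e_pow,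
    ZMod.natCast_zmod_val, mul_comm]

theorem w1e_fin (t : ZMod n) : IsOfFinOrder (w1e hμ t) :=
  isOfFinOrder_iff_pow_eq_one.2 ⟨n, NeZero.pos n, by rw [w1e_pow, ZMod.natCast_self, zero_mul, AddChar.map_zero_eq_one]⟩

theorem w1e_surj {g : E ≃ₐ[F] E} {z : E} (hz : z ≠ 0) (h : g (z ^ n) = z ^ n) : ∃ t, g z = w1e hμ t * z := by
  obtain ⟨a, -, ha⟩ := hμ.eq_pow_of_pow_eq_one (ξ := g z / z)
    (by rw [div_pow, ← map_pow, h, div_self (pow_ne_zero _ hz)])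
  exact ⟨a, by rw [AddChar.zmodChar_apply', ha, div_mul_cancel₀ _ hz]⟩

omit hμ in
theorem w1c_root {δ : E ≃ₐ[F] E} {z y : E} {a : ℕ} (h : IsOfFinOrder (δ (z ^ n) / ((z ^ n) ^ a * y ^ n))) :
    ∃ ε : E, IsOfFinOrder ε ∧ δ z = ε * z ^ a * y := by
  have h1 : δ (z ^ n) / ((z ^ n) ^ a * y ^ n) = (δ z / (z ^ a * y)) ^ n := by
    rw [map_pow, div_pow, mul_pow, ← pow_mul, ← pow_mul, mul_comm n a]
  rw [h1] at h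
  have h2 := h.of_pow (NeZero.ne n)
  have h3 : z ^ a * y ≠ 0 := fun h0 => w1c_ne h2 (by rw [h0, div_zero])
  exact ⟨_, h2, by rw [mul_assoc, div_mul_cancel₀ _ h3]⟩

/-- the character attached to an eigen-unit -/
theorem w1c_char {U U' U₀ : Subgroup (E ≃ₐ[F] E)} (hU' : U' ≤ U)
    (hn : ∀ δ ∈ U, ∀ g ∈ U', δ * g * δ⁻¹ ∈ U') (hc : ∀ δ ∈ U, ∀ δ' ∈ U, δ * δ' * δ⁻¹ * δ'⁻¹ ∈ U')
    (hU₀ : ∀ g ∈ U', g μ = μ → g ∈ U₀) (r : (E ≃ₐ[F] E) → ZMod n) (hr : ∀ g ∈ U', r g = 1)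
    (a : (E ≃ₐ[F] E) → ℕ) (ha : ∀ δ ∈ U, (hμ.autToPow F δ : ZMod n) * a δ = r δ) {δ₀ : E ≃ₐ[F] E} (h₀ : δ₀ ∈ U)
    {z : E} (hz : z ≠ 0) (hf : Fix U₀ (z ^ n))
    (hu : ∀ (A : ValuationSubring E) (p : ℕ), Over A p → A.valuation (z ^ n) = 1)
    (he : ∀ δ ∈ U, ∃ y, Fix U₀ y ∧ IsOfFinOrder (δ⁻¹ (z ^ n) / ((z ^ n) ^ a δ * y ^ n))) :
    ∃ η : (E ≃ₐ[F] E) → ZMod n, IsChar U' η ∧ (∀ δ ∈ U, ∀ g ∈ U', η (δ * g * δ⁻¹) = r δ * η g) ∧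
      (∀ g, g ∉ U' → η g = 0) ∧
      (∀ (A : ValuationSubring E) (p : ℕ), Over A p → ¬ p ∣ n → ∀ i ∈ U', Inert A i → η i = 0) ∧
      ∀ g ∈ U', (δ₀ * g * δ₀⁻¹ * g⁻¹) z = w1e hμ (η g) * z := by
  classical
  obtain ⟨ξ, hcont, hξ⟩ := kummer_cocycle U₀ μ hμ z hz hf
  replace hξ : ∀ g ∈ U₀, g z = w1e hμ (ξ g) * z := hξ
  have huniq : ∀ g ∈ U₀, ∀ t, g z = w1e hμ t * z → ξ g = t := fun g hg t h =>
    w1e_inj hμ (mul_right_cancel₀ hz ((hξ g hg).symm.trans h))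
  have μf : IsOfFinOrder μ := isOfFinOrder_iff_pow_eq_one.2 ⟨n, NeZero.pos n, hμ.pow_eq_one⟩
  let C : Subgroup (E ≃ₐ[F] E) :=
    { carrier := {g | g ∈ U' ∧ ∀ ε, IsOfFinOrder ε → g ε = ε}
      one_mem' := ⟨U'.one_mem, fun _ _ => rfl⟩
      mul_mem' := fun {g h} hg hh => ⟨U'.mul_mem hg.1 hh.1, fun ε hε => by
        rw [AlgEquiv.mul_apply, hh.2 ε hε, hg.2 ε hε]⟩
      inv_mem' := fun {g} hg => ⟨U'.inv_mem hg.1, fun ε hε => by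
        conv_lhs => rw [← hg.2 ε hε]
        simp⟩ }
  have hC : ∀ g ∈ C, g ∈ U₀ := fun g hg => hU₀ g hg.1 (hg.2 μ μf)
  have hCn : ∀ δ ∈ U, ∀ g ∈ C, δ * g * δ⁻¹ ∈ C := fun δ hδ g hg => ⟨hn δ hδ g hg.1, fun ε hε => by
    have h2 : IsOfFinOrder (δ⁻¹ ε) := MonoidHom.isOfFinOrder (δ⁻¹ : E ≃ₐ[F] E).toAlgHom.toMonoidHom hε
    rw [AlgEquiv.mul_apply, AlgEquiv.mul_apply, hg.2 _ h2]
    simp⟩
  have hCc : ∀ δ ∈ U, ∀ δ' ∈ U, δ * δ' * δ⁻¹ * δ'⁻¹ ∈ C := fun δ hδ δ' hδ' =>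
    ⟨hc δ hδ δ' hδ', fun ε hε => w1c_comm δ δ' hε⟩
  obtain ⟨h1, h2⟩ := w1c_grp (ξ := ξ) (r := r) hU' hCn hCc (fun g hg h hh => huniq _ (hC _ (C.mul_mem hg hh)) _ (by
      rw [AlgEquiv.mul_apply, hξ h (hC h hh), map_mul, hg.2 _ (w1e_fin hμ _), hξ g (hC g hg), AddChar.map_add_eq_mul]
      ring)) hr (fun δ hδ g hg => huniq _ (hC _ (hCn δ hδ g hg)) _ (by
      obtain ⟨y, hy, hy2⟩ := he δ hδ
      obtain ⟨ε, hε, hε2⟩ := w1c_root hy2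
      have h3 : g (δ⁻¹ z) = w1e hμ (a δ * ξ g) * δ⁻¹ z := by
        rw [hε2, map_mul, map_mul, map_pow, hg.2 ε hε, hy g (hC g hg), hξ g (hC g hg), mul_pow, w1e_pow]
        ring
      rw [AlgEquiv.mul_apply, AlgEquiv.mul_apply, h3, map_mul, w1e_map, ← mul_assoc, ha δ hδ]
      simp)) h₀
  have hm : ∀ g ∈ U', δ₀ * g * δ₀⁻¹ * g⁻¹ ∈ U₀ := fun g hg => hC _ (hCc δ₀ h₀ g (hU' hg))
  refine ⟨fun g => if g ∈ U' then ξ (δ₀ * g * δ₀⁻¹ * g⁻¹) else 0, ⟨fun g hg h hh => ?_, ?_⟩, fun δ hδ g hg => ?_,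
    fun g hg => if_neg hg, fun A p hA hp i hi hI => ?_, fun g hg => ?_⟩
  · simp only [if_pos hg, if_pos hh, if_pos (U'.mul_mem hg hh)]
    exact h1 g hg h hh
  · refine ContinuousOn.congr (f := fun g => ξ (δ₀ * g * δ₀⁻¹ * g⁻¹)) ?_ fun g hg => if_pos hg
    exact hcont.comp (by fun_prop) hm
  · simp only [if_pos hg, if_pos (hn δ hδ g hg)]
    exact h2 δ hδ g hg
  · have key : ∀ (A : ValuationSubring E), Over A p → ∀ i ∈ U', Inert A i → i z = z := by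
      intro A hA i hi hI
      have v1 : ∀ w : E, A.valuation (w ^ n) = 1 → A.valuation w = 1 := fun w h => by
        rw [map_pow] at h
        exact (pow_eq_one_iff_left (NeZero.ne n)).1 h
      refine hI.fix_root hA hp (v1 z (hu A p hA)) (hf i (hU₀ i hi ?_))
      exact hI.fix_root hA hp (v1 μ (by rw [hμ.pow_eq_one, map_one])) (by rw [hμ.pow_eq_one, map_one])
    simp only [if_pos hi]
    refine huniq _ (hm i hi) _ ?_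
    rw [AlgEquiv.mul_apply, key A hA _ (U'.inv_mem hi) hI.inv,
      key _ (hA.smul δ₀) _ (hn δ₀ h₀ i hi) (hI.conj δ₀), AddChar.map_zero_eq_one, one_mul]
  · simp only [if_pos hg]
    exact hξ _ (hm g hg)

/-- an eigen-element with trivial character is an `n`-th power up to torsion -/
theorem w1c_inj {V : Subgroup (E ≃ₐ[F] E)} {δ₀ : E ≃ₐ[F] E} {a : ℕ} {b : ZMod n}
    (hb : b * ((hμ.autToPow F δ₀ : ZMod n) * a - 1) = 1) {z y : E} (hz : z ≠ 0) (hf : Fix V (z ^ n)) (hy : Fix V y)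
    (he : IsOfFinOrder (δ₀⁻¹ (z ^ n) / ((z ^ n) ^ a * y ^ n))) (h : ∀ g ∈ V, (δ₀ * g * δ₀⁻¹ * g⁻¹) z = z) :
    ∃ y', Fix V y' ∧ IsOfFinOrder (z ^ n / y' ^ n) := by
  obtain ⟨ε, hε, hε2⟩ := w1c_root he
  have y0 : y ≠ 0 := by
    rintro rfl
    rw [mul_zero, map_eq_zero] at hε2
    exact hz hε2
  set c : (ZMod n)ˣ := hμ.autToPow F δ₀ with hc
  refine ⟨z * ε ^ ((c : ZMod n) * b).val, fun g hg => ?_, ?_⟩
  · obtain ⟨t, ht⟩ := w1e_surj hμ hz (hf g hg)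
    have h1 : (δ₀ * g * δ₀⁻¹) z = w1e hμ t * z := by
      have e : δ₀ * g * δ₀⁻¹ = (δ₀ * g * δ₀⁻¹ * g⁻¹) * g := by group
      rw [e, AlgEquiv.mul_apply, ht, map_mul, h g hg, w1c_comm _ _ (w1e_fin hμ t)]
    have h2 : g (δ₀⁻¹ z) = w1e hμ ((c⁻¹ : (ZMod n)ˣ) * t) * δ₀⁻¹ z := by
      have e : g * δ₀⁻¹ = δ₀⁻¹ * (δ₀ * g * δ₀⁻¹) := by group
      rw [← AlgEquiv.mul_apply, e, AlgEquiv.mul_apply, h1, map_mul, w1e_map, map_inv]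
    rw [hε2, map_mul, map_mul, map_pow, hy g hg, ht, mul_pow, w1e_pow] at h2
    have h3 : g ε = w1e hμ ((c⁻¹ : (ZMod n)ˣ) * t - a * t) * ε := by
      refine mul_right_cancel₀ (mul_ne_zero (mul_ne_zero (w1c_ne (w1e_fin hμ (a * t))) (pow_ne_zero a hz)) y0) ?_
      rw [← mul_assoc, h2]
      conv_lhs => rw [← sub_add_cancel ((c⁻¹ : (ZMod n)ˣ) * t) (a * t), AddChar.map_add_eq_mul]
      ring
    rw [map_mul, map_pow, ht, h3, mul_pow, w1e_pow, ZMod.natCast_zmod_val, mul_mul_mul_comm, ← AddChar.map_add_eq_mul]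
    have h4 : t + (c : ZMod n) * b * ((c⁻¹ : (ZMod n)ˣ) * t - a * t) = 0 := by
      linear_combination (-t) * hb + b * t * c.mul_inv
    rw [h4, AddChar.map_zero_eq_one, one_mul]
  · rw [mul_pow, div_mul_cancel_left₀ (pow_ne_zero n hz)]
    obtain ⟨N, hN, h1⟩ := isOfFinOrder_iff_pow_eq_one.1 ((hε.pow (n := ((c : ZMod n) * b).val)).pow (n := n))
    exact isOfFinOrder_iff_pow_eq_one.2 ⟨N, hN, by rw [inv_pow, h1, inv_one]⟩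

end

end Crest.Agent.R18
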