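import Mathlib

/-! Row 18 block W1: counting eigenvectors modulo `ℓ ^ k` in a lattice with a cyclic action. -/

set_option autoImplicit false

namespace Crest.Agent.R18

theorem w1a_seq {a r : ℕ → ℕ} {q e k : ℕ} (hq : 0 < q) (h0 : a 0 = 1) (hs : ∀ j, a (j + 1) = a j * r j)
    (hr : Antitone r) (he : q ^ e ≤ a e) (hk : k ≤ e) : q ^ k ≤ a k := by
  by_cases h : ∀ j < k, q ≤ r j
  · have : ∀ j ≤ k, q ^ j ≤ a j := by
      intro j hj
      induction j with
      | zero => simp [h0]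
      | succ j ih =>
        rw [hs, pow_succ]
        exact Nat.mul_le_mul (ih (by omega)) (h j (by omega))
    exact this k le_rfl
  · push Not at h
    obtain ⟨j, hj, hq'⟩ := h
    have : ∀ t, a (k + t) ≤ a k * q ^ t := by
      intro t
      induction t with
      | zero => simp
      | succ t ih =>
        rw [← add_assoc, hs, pow_succ, ← mul_assoc]
        exact Nat.mul_le_mul ih ((hr (by omega)).trans hq'.le)
    obtain ⟨t, rfl⟩ := Nat.exists_eq_add_of_le hk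
    have h2 := he.trans (this t)
    rw [pow_add] at h2
    exact Nat.le_of_mul_le_mul_right h2 (pow_pos hq t)

/-- a finite abelian group killed by `D` whose order is divisible by `D ^ 2` has many `ℓ ^ k`-torsion points -/
theorem w1a_tors {A : Type*} [AddCommGroup A] [Finite A] {ℓ : ℕ} (hℓ : ℓ.Prime) {D k : ℕ} (hD : D ≠ 0)
    (hk : ℓ ^ k ∣ D) (hA : D ^ 2 ∣ Nat.card A) (hkill : ∀ a : A, D • a = 0) :
    ℓ ^ (2 * k) ≤ Nat.card (nsmulAddMonoidHom (α := A) (ℓ ^ k)).ker := by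
  obtain ⟨e, D', hD', rfl⟩ := Nat.exists_eq_pow_mul_and_not_dvd hD ℓ hℓ.ne_one
  have hc : ∀ j, Nat.Coprime (ℓ ^ j) D' := fun j => ((Nat.Prime.coprime_iff_not_dvd hℓ).2 hD').pow_left j
  have hke : k ≤ e := (Nat.pow_dvd_pow_iff_le_right hℓ.one_lt).1 ((hc k).dvd_of_dvd_mul_right hk)
  let B : ℕ → AddSubgroup A := fun j => (nsmulAddMonoidHom (α := A) (ℓ ^ j)).ker
  have hB : ∀ j x, x ∈ B j ↔ ℓ ^ j • x = 0 := fun j x => Iff.rfl
  have hle : ∀ j, B j ≤ B (j + 1) := fun j x hx => by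
    rw [hB] at hx ⊢
    rw [pow_succ', mul_smul, hx, smul_zero]
  rw [pow_mul]
  refine w1a_seq (a := fun j => Nat.card (B j)) (e := e)
    (r := fun j => Nat.card ((B (j + 1)).map (nsmulAddMonoidHom (α := A) (ℓ ^ j)))) (pow_pos hℓ.pos 2) ?_ ?_ ?_ ?_ hke
  · rw [AddSubgroup.card_eq_one, eq_bot_iff]
    intro x hx
    rw [hB] at hx
    simpa using hx
  · intro j
    have h1 := AddSubgroup.relIndex_mul_index (hle j)
    have h2 := (B j).card_mul_index
    have h3 := (B (j + 1)).card_mul_index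
    rw [AddSubgroup.relIndex_ker] at h1
    have h4 : (B (j + 1)).index ≠ 0 := AddSubgroup.index_ne_zero_of_finite
    refine Nat.eq_of_mul_eq_mul_right (Nat.pos_of_ne_zero h4) ?_
    rw [h3, mul_assoc, h1, h2]
  · refine antitone_nat_of_succ_le fun j => AddSubgroup.card_le_of_le ?_
    rintro _ ⟨x, hx, rfl⟩
    refine ⟨ℓ • x, ?_, ?_⟩
    · rw [SetLike.mem_coe, hB] at hx ⊢
      rwa [← mul_smul, ← pow_succ]
    · simp only [nsmulAddMonoidHom_apply]
      rw [← mul_smul, ← pow_succ]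
  · have := Fact.mk hℓ
    have h1 : ℓ ^ (2 * e) ∣ Nat.card (Multiplicative A) := by
      refine Dvd.dvd.trans ?_ hA
      rw [mul_pow, mul_comm 2 e, pow_mul]
      exact dvd_mul_right _ _
    obtain ⟨H, hH⟩ := Sylow.exists_subgroup_card_pow_prime ℓ h1
    rw [← pow_mul, ← hH]
    refine Nat.card_le_card_of_injective (fun h : H => (⟨(h : Multiplicative A).toAdd, ?_⟩ : B e)) ?_
    · rw [hB, ← addOrderOf_dvd_iff_nsmul_eq_zero]
      have h2 : addOrderOf (h : Multiplicative A).toAdd ∣ ℓ ^ (2 * e) := by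
        rw [← hH, ← orderOf_ofAdd_eq_addOrderOf, ofAdd_toAdd]
        exact H.orderOf_dvd_natCard h.2
      obtain ⟨j, -, h3⟩ := (Nat.dvd_prime_pow hℓ).1 h2
      have h4 := addOrderOf_dvd_iff_nsmul_eq_zero.2 (hkill (h : Multiplicative A).toAdd)
      rw [h3] at h4 ⊢
      exact (hc j).dvd_of_dvd_mul_right h4
    · intro x y hxy
      exact Subtype.ext (Multiplicative.toAdd.injective (Subtype.mk.inj hxy))

/-- the index of an injective endomorphism does not change under passage to a subgroup of finite index -/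
theorem w1a_index {T : Type*} [AddCommGroup T] (f : T →+ T) (hf : Function.Injective f) (M : AddSubgroup T)
    (hM : M.index ≠ 0) (hfM : M.map f ≤ M) : f.range.index = (M.map f).relIndex M := by
  have h1 : M.map f ≤ f.range := AddSubgroup.map_le_range f M
  have h2 := AddSubgroup.relIndex_mul_index h1
  have h3 := AddSubgroup.relIndex_mul_index hfM
  rw [AddMonoidHom.range_eq_map, AddSubgroup.relIndex_map_map_of_injective _ _ hf, AddSubgroup.relIndex_top_right,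
    ← AddMonoidHom.range_eq_map, ← h3, mul_comm] at h2
  exact Nat.eq_of_mul_eq_mul_right (Nat.pos_of_ne_zero hM) h2

open Finset in
theorem w1a_main {T : Type*} [AddCommGroup T] [AddGroup.FG T] (htf : ∀ (N : ℕ) (x : T), N ≠ 0 → N • x = 0 → x = 0)
    {W : Type*} [Fintype W] (σ : Equiv.Perm W) {m : ℕ} (hm : 0 < m) (hσ : σ ^ m = 1) (g : AddMonoid.End T)
    (hg : g ^ m = 1) (u : W → T) (hu : ∀ w, g (u w) = u (σ w)) {c₀ : ℕ} (hc₀ : c₀ ≠ 0)
    (hspan : ∀ x, ∃ a : W → ℤ, c₀ • x = ∑ w, a w • u w) (w : Fin 3 → W)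
    (hind : ∀ a : W → ℤ, a (w 0) = 0 → ∑ w, a w • u w = 0 → a = 0)
    (hw : ∀ i < m, ∀ j j', (σ ^ i) (w j) = w j' → i = 0 ∧ j = j') {ℓ k c : ℕ} (hℓ : ℓ.Prime) (hc : 2 ≤ c)
    (hn : ℓ ^ k ∣ c ^ m - 1) :
    ∃ X : Finset T, ℓ ^ (2 * k) ≤ X.card ∧ (∀ x ∈ X, ∃ y, g x = c • x + ℓ ^ k • y) ∧
      ∀ x ∈ X, ∀ x' ∈ X, ∀ y, x - x' = ℓ ^ k • y → x = x' := by
  classical
  have h1 : 1 < c ^ m := Nat.one_lt_pow hm.ne' hc
  obtain ⟨D, hD⟩ : ∃ D, c ^ m = D + 1 := ⟨c ^ m - 1, by omega⟩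
  have D0 : D ≠ 0 := by omega
  rw [hD, Nat.add_sub_cancel] at hn
  have := NeZero.mk D0
  have cm : (c : ZMod D) ^ m = 1 := by rw [← Nat.cast_pow, hD]; simp
  let f : AddMonoid.End T := g - c
  have hf : ∀ x, f x = g x - c • x := fun x => rfl
  let N : AddMonoid.End T := ∑ i ∈ range m, g ^ i * (c : AddMonoid.End T) ^ (m - 1 - i)
  have hgc : g ^ m - (c : AddMonoid.End T) ^ m = -(D : AddMonoid.End T) := by
    rw [hg, ← Nat.cast_pow, hD]; simp
  have hN1 : ∀ x, N (f x) = -(D • x) := fun x =>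
    DFunLike.congr_fun (((Nat.commute_cast g c).geom_sum₂_mul m).trans hgc) x
  have hN2 : ∀ x, f (N x) = -(D • x) := fun x =>
    DFunLike.congr_fun (((Nat.commute_cast g c).mul_geom_sum₂ m).trans hgc) x
  have finj : Function.Injective f := (injective_iff_map_eq_zero f).2 fun x hx => by
    have := hN1 x
    rw [hx, map_zero, eq_comm, neg_eq_zero] at this
    exact htf D x D0 this
  let f' : T →+ T := f
  let φ : (W → ℤ) →+ T := AddMonoidHom.mk' (fun a => ∑ w, a w • u w) fun a b => by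
    simp [add_smul, sum_add_distrib]
  have hφ : ∀ a, φ a = ∑ w, a w • u w := fun a => rfl
  have fi : ∀ (M : AddSubgroup T) (N : ℕ), N ≠ 0 → (∀ x, N • x ∈ M) → M.FiniteIndex := by
    intro M N hN h
    have := AddSubgroup.finiteIndex_range_nsmulAddMonoidHom_of_fg T hN
    refine AddSubgroup.finiteIndex_of_le (H := (nsmulAddMonoidHom (α := T) N).range) ?_
    rintro _ ⟨x, rfl⟩
    exact h x
  have hfφ : ∀ a, f' (φ a) = φ (fun w => a (σ⁻¹ w) - c * a w) := by
    intro a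
    change f (φ a) = _
    rw [hf, hφ, hφ, map_sum, smul_sum]
    simp only [map_zsmul, hu, sub_smul, sum_sub_distrib, mul_smul, natCast_zsmul]
    congr 1
    rw [eq_comm, ← Equiv.sum_comp σ]
    simp
  have hM := (fi φ.range c₀ hc₀ fun x => by obtain ⟨a, ha⟩ := hspan x; exact ⟨a, ha.symm⟩).index_ne_zero
  have hidx := w1a_index f' finj φ.range hM (by rintro _ ⟨_, ⟨a, rfl⟩, rfl⟩; exact ⟨_, (hfφ a).symm⟩)
  rw [← AddSubgroup.index_comap] at hidx
  let θ : (W → ℤ) →+ (Fin 3 → ZMod D) := AddMonoidHom.mk'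
    (fun a j => ∑ i ∈ range m, (c : ZMod D) ^ i * (a ((σ ^ i) (w j)) : ZMod D)) fun a b => by
      ext j
      simp [mul_add, sum_add_distrib]
  have hθ : ∀ a j, θ a j = ∑ i ∈ range m, (c : ZMod D) ^ i * (a ((σ ^ i) (w j)) : ZMod D) := fun a j => rfl
  have θ0 : ∀ a : W → ℤ, θ (fun w => a (σ⁻¹ w) - c * a w) = 0 := by
    intro a
    ext j
    have := sum_range_sub' (fun i => (c : ZMod D) ^ i * (a (σ⁻¹ ((σ ^ i) (w j))) : ZMod D)) m
    rw [cm, hσ, pow_zero, pow_zero, sub_self] at this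
    rw [hθ, Pi.zero_apply, ← this]
    refine sum_congr rfl fun i _ => ?_
    rw [pow_succ' σ, Equiv.Perm.mul_apply, Equiv.Perm.inv_def, Equiv.symm_apply_apply]
    push_cast
    ring
  have θs : Function.Surjective θ := by
    intro b
    refine ⟨fun v => ∑ j, if v = w j then ((b j).val : ℤ) else 0, funext fun j => ?_⟩
    rw [hθ, sum_eq_single 0]
    · rw [sum_eq_single j]
      · simp
      · intro j' _ hj
        exact if_neg fun h => hj (hw 0 hm j j' h).2.symm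
      · simp
    · intro i hi i0
      rw [sum_eq_zero fun j' _ => if_neg fun h => i0 (hw i (mem_range.1 hi) j j' h).1]
      simp
    · intro h
      exact absurd (mem_range.2 hm) h
  obtain ⟨κ, hκ⟩ : ∃ κ : W → ℤ, ∀ a, φ a = 0 → ∃ t : ℤ, a = t • κ := by
    obtain ⟨d, hd⟩ := Int.subgroup_cyclic (φ.ker.map (Pi.evalAddMonoidHom (fun _ => ℤ) (w 0)))
    obtain ⟨κ, hκ, hκd⟩ : d ∈ φ.ker.map (Pi.evalAddMonoidHom (fun _ => ℤ) (w 0)) :=
      hd ▸ AddSubgroup.subset_closure rfl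
    refine ⟨κ, fun a ha => ?_⟩
    have h2 : a (w 0) ∈ AddSubgroup.closure {d} := hd ▸ ⟨a, ha, rfl⟩
    obtain ⟨t, ht⟩ := AddSubgroup.mem_closure_singleton.1 h2
    refine ⟨t, sub_eq_zero.1 (hind _ ?_ ?_)⟩
    · change κ (w 0) = d at hκd
      rw [Pi.sub_apply, Pi.smul_apply, hκd, ht, sub_self]
    · rw [← hφ, map_sub, map_zsmul, ha, show φ κ = 0 from hκ, smul_zero, sub_zero]
  have hle : ((φ.range.map f').comap φ) ≤ (AddSubgroup.zmultiples (θ κ)).comap θ := by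
    rintro a ⟨_, ⟨b, rfl⟩, hb⟩
    rw [hfφ, eq_comm, ← sub_eq_zero, ← map_sub] at hb
    obtain ⟨t, ht⟩ := hκ _ hb
    refine ⟨t, ?_⟩
    have := congrArg θ ht
    rw [map_sub, θ0, sub_zero, map_zsmul] at this
    exact this.symm
  have hdiv : D ^ 2 ∣ Nat.card (T ⧸ f'.range) := by
    rw [← AddSubgroup.index_eq_card, hidx]
    refine Dvd.dvd.trans ?_ (AddSubgroup.index_dvd_of_le hle)
    rw [AddSubgroup.index_comap_of_surjective _ θs]
    have h2 := (AddSubgroup.zmultiples (θ κ)).card_mul_index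
    rw [Nat.card_zmultiples, Nat.card_fun, Nat.card_zmod, Nat.card_fin] at h2
    obtain ⟨d, hd⟩ : addOrderOf (θ κ) ∣ D := addOrderOf_dvd_iff_nsmul_eq_zero.2 (by ext j; simp)
    have o0 : 0 < addOrderOf (θ κ) := addOrderOf_pos _
    refine ⟨d, Nat.eq_of_mul_eq_mul_left o0 ?_⟩
    rw [h2, mul_left_comm, ← hd]
    ring
  have hDf : ∀ x, D • x ∈ f'.range := fun x => ⟨-N x, by
    change f _ = _
    rw [map_neg, hN2, neg_neg]⟩
  have := fi f'.range D D0 hDf
  have hc := w1a_tors (A := T ⧸ f'.range) hℓ D0 hn hdiv fun a => by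
    obtain ⟨x, rfl⟩ := QuotientAddGroup.mk_surjective a
    rw [← QuotientAddGroup.mk_nsmul, QuotientAddGroup.eq_zero_iff]
    exact hDf x
  have hy : ∀ a : (nsmulAddMonoidHom (α := T ⧸ f'.range) (ℓ ^ k)).ker, ∃ x y : T, (x : T ⧸ f'.range) = a ∧
      f y = ℓ ^ k • x := by
    intro a
    obtain ⟨x, hx⟩ := QuotientAddGroup.mk_surjective a.1
    have h2 : ℓ ^ k • a.1 = 0 := a.2
    rw [← hx, ← QuotientAddGroup.mk_nsmul, QuotientAddGroup.eq_zero_iff] at h2
    obtain ⟨y, hy⟩ := h2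
    exact ⟨x, y, hx, hy⟩
  choose x y hx hy using hy
  have key : ∀ a a' t, y a - y a' = ℓ ^ k • t → a = a' := by
    intro a a' t h
    have h2 := congrArg f h
    rw [map_sub, hy, hy, map_nsmul, ← sub_eq_zero, ← smul_sub, ← smul_sub] at h2
    have h3 := htf _ _ (pow_ne_zero k hℓ.ne_zero) h2
    refine Subtype.ext ?_
    rw [← hx, ← hx, QuotientAddGroup.eq_iff_sub_mem]
    exact ⟨t, (sub_eq_zero.1 h3).symm⟩
  have := Fintype.ofFinite (nsmulAddMonoidHom (α := T ⧸ f'.range) (ℓ ^ k)).ker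
  refine ⟨univ.image y, ?_, ?_, ?_⟩
  · rw [card_image_of_injective _ fun a a' h => key a a' 0 (by rw [h, sub_self, smul_zero]), card_univ,
      ← Nat.card_eq_fintype_card]
    exact hc
  · intro z hz
    obtain ⟨a, -, rfl⟩ := mem_image.1 hz
    exact ⟨x a, by rw [← hy, hf]; abel⟩
  · intro z hz z' hz' t h
    obtain ⟨a, -, rfl⟩ := mem_image.1 hz
    obtain ⟨a', -, rfl⟩ := mem_image.1 hz'
    rw [key a a' t h]

/-- multiplicative version, modulo torsion -/
theorem w1a_mul {O : Type*} [CommGroup O] [Group.FG O]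
    {W : Type*} [Fintype W] (σ : Equiv.Perm W) {m : ℕ} (hm : 0 < m) (hσ : σ ^ m = 1) (g : O →* O)
    (hg : ∀ x, g^[m] x = x) (u : W → O) (hu : ∀ w, g (u w) = u (σ w)) {c₀ : ℕ} (hc₀ : c₀ ≠ 0)
    (hspan : ∀ x, ∃ a : W → ℤ, x ^ c₀ = ∏ w, u w ^ a w) (w : Fin 3 → W)
    (hind : ∀ a : W → ℤ, a (w 0) = 0 → IsOfFinOrder (∏ w, u w ^ a w) → a = 0)
    (hw : ∀ i < m, ∀ j j', (σ ^ i) (w j) = w j' → i = 0 ∧ j = j') {ℓ k c : ℕ} (hℓ : ℓ.Prime) (hc : 2 ≤ c)
    (hn : ℓ ^ k ∣ c ^ m - 1) :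
    ∃ X : Finset O, ℓ ^ (2 * k) ≤ X.card ∧ (∀ x ∈ X, ∃ y, IsOfFinOrder (g x / (x ^ c * y ^ ℓ ^ k))) ∧
      ∀ x ∈ X, ∀ x' ∈ X, ∀ y, IsOfFinOrder (x / x' / y ^ ℓ ^ k) → x = x' := by
  classical
  let π : O →* O ⧸ CommGroup.torsion O := QuotientGroup.mk' _
  have π1 : ∀ x, π x = 1 ↔ IsOfFinOrder x := fun x => QuotientGroup.eq_one_iff x
  have πs : Function.Surjective π := QuotientGroup.mk'_surjective _
  let gq : O ⧸ CommGroup.torsion O →* O ⧸ CommGroup.torsion O :=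
    QuotientGroup.map _ _ g fun x hx => MonoidHom.isOfFinOrder g hx
  have hgq : ∀ x, gq (π x) = π (g x) := fun x => rfl
  let ga : AddMonoid.End (Additive (O ⧸ CommGroup.torsion O)) := MonoidHom.toAdditive gq
  have hga : ∀ x, ga (Additive.ofMul (π x)) = Additive.ofMul (π (g x)) := fun x => rfl
  have sur : ∀ t : Additive (O ⧸ CommGroup.torsion O), ∃ x, t = Additive.ofMul (π x) := fun t => by
    obtain ⟨x, hx⟩ := πs t.toMul
    exact ⟨x, by rw [hx, ofMul_toMul]⟩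
  have hsum : ∀ a : W → ℤ, ∑ w, a w • Additive.ofMul (π (u w)) = Additive.ofMul (π (∏ w, u w ^ a w)) := by
    intro a
    rw [map_prod, ofMul_prod]
    simp only [map_zpow, ofMul_zpow]
  have a1 : ∀ (N : ℕ) (t : Additive (O ⧸ CommGroup.torsion O)), N ≠ 0 → N • t = 0 → t = 0 := by
    intro N t hN h
    obtain ⟨x, rfl⟩ := sur t
    rw [← ofMul_pow, ofMul_eq_zero, ← map_pow, π1] at h
    rw [ofMul_eq_zero, π1]
    exact h.of_pow hN
  have a2 : ga ^ m = 1 := by
    have : ∀ (j : ℕ) x, (ga ^ j) (Additive.ofMul (π x)) = Additive.ofMul (π (g^[j] x)) := by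
      intro j
      induction j with
      | zero => intro x; rfl
      | succ j ih => intro x; rw [pow_succ, AddMonoid.End.coe_mul, Function.comp_apply, hga, ih]; rfl
    refine DFunLike.ext _ _ fun t => ?_
    obtain ⟨x, rfl⟩ := sur t
    rw [this, hg]; rfl
  have a3 : ∀ t : Additive (O ⧸ CommGroup.torsion O), ∃ a : W → ℤ,
      c₀ • t = ∑ w, a w • Additive.ofMul (π (u w)) := by
    intro t
    obtain ⟨x, rfl⟩ := sur t
    obtain ⟨a, ha⟩ := hspan x
    exact ⟨a, by rw [hsum, ← ha, map_pow, ofMul_pow]⟩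
  have a4 : ∀ a : W → ℤ, a (w 0) = 0 → ∑ w, a w • Additive.ofMul (π (u w)) = 0 → a = 0 := by
    intro a h0 h
    rw [hsum, ofMul_eq_zero, π1] at h
    exact hind a h0 h
  obtain ⟨X, h1, h2, h3⟩ := w1a_main a1 σ hm hσ ga a2
    (fun w => Additive.ofMul (π (u w))) (fun w => by rw [hga, hu]) hc₀ a3 w a4 hw hℓ hc hn
  choose r hr using sur
  have rinj : Function.Injective r := fun t t' h => by rw [hr t, h, ← hr t']
  refine ⟨X.image r, by rwa [Finset.card_image_of_injective _ rinj], ?_, ?_⟩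
  · intro z hz
    obtain ⟨t, ht, rfl⟩ := Finset.mem_image.1 hz
    obtain ⟨y, hy⟩ := h2 t ht
    refine ⟨r y, (π1 _).1 ?_⟩
    rw [hr t, hr y, hga, ← ofMul_pow, ← ofMul_pow, ← ofMul_mul] at hy
    rw [map_div, Additive.ofMul.injective hy, map_mul, map_pow, map_pow, div_self']
  · intro z hz z' hz' y h
    obtain ⟨t, ht, rfl⟩ := Finset.mem_image.1 hz
    obtain ⟨t', ht', rfl⟩ := Finset.mem_image.1 hz'
    rw [← π1, map_div, div_eq_one, map_div, map_pow] at h
    rw [h3 t ht t' ht' (Additive.ofMul (π y)) (by rw [hr t, hr t', ← ofMul_div, h, ofMul_pow])]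

end Crest.Agent.R18
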