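import Crest.Agent.R18.MU
import Crest.Agent.R18.W1.Alg

/-! Row 18 block W1: eigen-units in a cyclic extension of a totally complex field. -/

set_option autoImplicit false
open scoped Pointwise NumberField
open NumberField

namespace Crest.Agent.R18

theorem w1u_units (K L : Type*) [Field K] [NumberField K] [Field L] [NumberField L] [Algebra K L] [IsGalois K L]
    (i : K) (hi : i ^ 2 = -1) (h6 : 6 ≤ Module.finrank ℚ K) (γ : L ≃ₐ[K] L) {ℓ k c : ℕ} (hℓ : ℓ.Prime) (hc : 2 ≤ c)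
    (hn : ℓ ^ k ∣ c ^ orderOf γ - 1) :
    ∃ X : Finset L, ℓ ^ (2 * k) ≤ X.card ∧
      (∀ x ∈ X, x ≠ 0 ∧ IsIntegral ℤ x ∧ IsIntegral ℤ x⁻¹ ∧ ∃ y : L, IsOfFinOrder (γ x / (x ^ c * y ^ ℓ ^ k))) ∧
      ∀ x ∈ X, ∀ x' ∈ X, ∀ y : L, IsOfFinOrder (x / x' / y ^ ℓ ^ k) → x = x' := by
  classical
  have htc : IsTotallyComplex K := ⟨fun v => by
    rw [← InfinitePlace.not_isReal_iff_isComplex]
    intro hv
    have := congrArg (InfinitePlace.embedding_of_isReal hv) hi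
    rw [map_pow, map_neg, map_one] at this
    nlinarith [sq_nonneg (InfinitePlace.embedding_of_isReal hv i)]⟩
  have hfree : ∀ (σ : L ≃ₐ[K] L) (w : InfinitePlace L), σ • w = w → σ = 1 := fun σ w h => by
    have h1 := (InfinitePlace.isUnramified_iff.2 (Or.inr (htc.isComplex (w.comap (algebraMap K L))))).stabilizer_eq_bot
    exact Subgroup.mem_bot.1 (h1 ▸ h)
  obtain ⟨u, c₀, c0, hu, hspan, hind⟩ := mu2 K L hfree
  have h3 : Fintype.card (Fin 3) ≤ Fintype.card (InfinitePlace K) := by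
    have h1 := IsTotallyComplex.finrank K
    rw [Fintype.card_fin, InfinitePlace.card_eq_nrRealPlaces_add_nrComplexPlaces]
    omega
  obtain ⟨v⟩ := Function.Embedding.nonempty_of_card_le h3
  choose w hw using fun j => InfinitePlace.comap_surjective (K := L) (v j)
  let ι : (𝓞 L)ˣ →* L := (algebraMap (𝓞 L) L).toMonoidHom.comp (Units.coeHom _)
  have hι : ∀ x, ι x = ((x : 𝓞 L) : L) := fun x => rfl
  have ιi : Function.Injective ι := fun x y h => Units.ext (RingOfIntegers.ext h)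
  let g : (𝓞 L)ˣ →* (𝓞 L)ˣ := Units.map (RingOfIntegers.mapRingHom (γ : L →+* L)).toMonoidHom
  have hg : ∀ x, ι (g x) = γ (ι x) := fun x => rfl
  have hgj : ∀ (j : ℕ) x, ι (g^[j] x) = (γ ^ j) (ι x) := by
    intro j
    induction j with
    | zero => intro x; rfl
    | succ j ih => intro x; rw [Function.iterate_succ_apply', hg, ih, pow_succ', AlgEquiv.mul_apply]
  have : Group.FG (𝓞 L)ˣ := Group.fg_iff_monoid_fg.2 inferInstance
  obtain ⟨X, h1, h2, h4⟩ := w1a_mul (MulAction.toPermHom (L ≃ₐ[K] L) (InfinitePlace L) γ) (orderOf_pos γ)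
    (by rw [← map_pow, pow_orderOf_eq_one, map_one]) g
    (fun x => ιi (by rw [hgj, pow_orderOf_eq_one, AlgEquiv.one_apply])) u
    (fun w => ιi (by rw [hg]; exact (hu γ w).symm)) c0.ne' hspan w (fun a => hind a (w 0)) (fun i hi j j' h => by
      rw [← map_pow] at h
      change (γ ^ i) • w j = w j' at h
      have h1 : j = j' := v.injective (by
        rw [← hw, ← hw]
        exact InfinitePlace.mem_orbit_iff.1 ⟨_, h⟩)
      subst h1
      exact ⟨Nat.eq_zero_of_dvd_of_lt (orderOf_dvd_of_pow_eq_one (hfree _ _ h)) hi, rfl⟩) hℓ hc hn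
  refine ⟨X.image ι, by rwa [Finset.card_image_of_injective _ ιi], fun z hz => ?_, fun z hz z' hz' y hy => ?_⟩
  · obtain ⟨x, hx, rfl⟩ := Finset.mem_image.1 hz
    obtain ⟨y, hy⟩ := h2 x hx
    refine ⟨(x.isUnit.map (algebraMap (𝓞 L) L)).ne_zero, (x : 𝓞 L).2, ?_, ι y, ?_⟩
    · rw [← map_inv]; exact ((x⁻¹ : (𝓞 L)ˣ) : 𝓞 L).2
    · have := ι.isOfFinOrder hy
      rwa [map_div, map_mul, map_pow, map_pow, hg] at this
  · obtain ⟨x, hx, rfl⟩ := Finset.mem_image.1 hz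
    obtain ⟨x', hx', rfl⟩ := Finset.mem_image.1 hz'
    obtain ⟨N, hN, h5⟩ := isOfFinOrder_iff_pow_eq_one.1 hy
    have n0 : ℓ ^ k * N ≠ 0 := mul_ne_zero (pow_ne_zero _ hℓ.ne_zero) hN.ne'
    have y0 : y ≠ 0 := by
      rintro rfl
      rw [zero_pow (pow_ne_zero _ hℓ.ne_zero), div_zero, zero_pow hN.ne'] at h5
      exact zero_ne_one h5
    rw [div_pow, ← pow_mul, div_eq_one_iff_eq (pow_ne_zero _ y0), ← map_div, ← map_pow] at h5
    have i1 : IsIntegral ℤ y := IsIntegral.of_pow (Nat.pos_of_ne_zero n0) (by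
      rw [← h5]; exact (((x / x') ^ N : (𝓞 L)ˣ) : 𝓞 L).2)
    have i2 : IsIntegral ℤ y⁻¹ := IsIntegral.of_pow (Nat.pos_of_ne_zero n0) (by
      rw [inv_pow, ← h5, ← map_inv]; exact ((((x / x') ^ N)⁻¹ : (𝓞 L)ˣ) : 𝓞 L).2)
    let y₀ : (𝓞 L)ˣ := ⟨⟨y, i1⟩, ⟨y⁻¹, i2⟩, RingOfIntegers.ext (mul_inv_cancel₀ y0), RingOfIntegers.ext (inv_mul_cancel₀ y0)⟩
    rw [h4 x hx x' hx' y₀ (ιi.isOfFinOrder_iff.1 (by rw [map_div, map_div, map_pow]; exact hy))]

end Crest.Agent.R18
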