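import Crest.Agent.R18.SC
import Crest.Agent.R18.Tower
import Crest.Agent.R18.W1.Chr
import Crest.Agent.R18.W1.Unit

/-! Row 18 block W1: assembly. -/

set_option autoImplicit false
set_option linter.unusedSectionVars false
open scoped Pointwise NumberField
open IsDedekindDomain Crest.NumberTheoryR IntermediateField

namespace Crest.Agent.R18

variable {F E : Type*} [Field F] [NumberField F] [Field E] [Algebra F E] [IsGalois F E]

theorem w1m_div {p q : E} (hp : IsOfFinOrder p) (hq : IsOfFinOrder q) : IsOfFinOrder (p / q) := by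
  obtain ⟨N, hN, h1⟩ := isOfFinOrder_iff_pow_eq_one.1 hq
  rw [div_eq_mul_inv]
  exact hp.mul (isOfFinOrder_iff_pow_eq_one.2 ⟨N, hN, by rw [inv_pow, h1, inv_one]⟩)

theorem w1m_iter {U₀ : Subgroup (E ≃ₐ[F] E)} {γ : E ≃ₐ[F] E} (hn : ∀ w ∈ U₀, γ⁻¹ * w * γ ∈ U₀) {x y : E} {c n : ℕ}
    (hy : Fix U₀ y) (h : IsOfFinOrder (γ x / (x ^ c * y ^ n))) (hx : x ≠ 0) (j : ℕ) :
    ∃ y, Fix U₀ y ∧ IsOfFinOrder ((γ ^ j) x / (x ^ c ^ j * y ^ n)) := by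
  induction j with
  | zero => exact ⟨1, fun g _ => map_one g, by simp [hx]⟩
  | succ j ih =>
    obtain ⟨y', hy', h'⟩ := ih
    refine ⟨y ^ c ^ j * γ y', fun g hg => ?_, ?_⟩
    · have e : g * γ = γ * (γ⁻¹ * g * γ) := by group
      rw [map_mul, map_pow, hy g hg, ← AlgEquiv.mul_apply, e, AlgEquiv.mul_apply, hy' _ (hn g hg)]
    · have h2 := (MonoidHom.isOfFinOrder γ.toAlgHom.toMonoidHom h').mul (h.pow (n := c ^ j))
      have x1 : γ x ≠ 0 := (map_ne_zero γ).2 hx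
      refine Eq.mpr (congrArg IsOfFinOrder ?_) h2
      change _ = γ _ * _
      rw [map_div₀, map_mul, map_pow, map_pow, pow_succ' γ, AlgEquiv.mul_apply, div_pow, div_mul_div_comm,
        mul_right_comm, mul_comm (γ ((γ ^ j) x)), mul_assoc, mul_div_mul_left _ _ (pow_ne_zero _ x1)]
      congr 1
      ring

theorem w1m (hE : IsSolvablyClosed E) {s : ℕ} (hs : s.Prime) (U U' : Subgroup (E ≃ₐ[F] E))
    (hU : IsOpen (U : Set (E ≃ₐ[F] E))) (h6 : 6 ≤ U.index) (i : E) (hi : i ^ 2 = -1)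
    (hfi : Fix U i) (ρ : (E ≃ₐ[F] E) → ZMod s) (hρ : IsChar U ρ) (hρ0 : ∃ g ∈ U, ρ g ≠ 0)
    (hU' : ∀ g, g ∈ U' ↔ g ∈ U ∧ ρ g = 0) (ℓ : ℕ) [Fact ℓ.Prime] (h2 : ℓ ≠ 2) (hsl : s ≠ ℓ)
    (ζ : ℤ_[ℓ]) (hζ : IsPrimitiveRoot ζ s) (k : ℕ) :
    ∃ T : Finset ((E ≃ₐ[F] E) → ZMod (ℓ ^ k)), (∀ η ∈ T, IsChar U' η ∧ Equi U U' ρ (PadicInt.toZModPow k ζ) η ∧
      (∀ g, g ∉ U' → η g = 0) ∧
      ∀ (A : ValuationSubring E) (p : ℕ), Over A p → p ≠ ℓ → ∀ i ∈ U', Inert A i → η i = 0) ∧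
      ℓ ^ (2 * k) ≤ T.card := by
  classical
  have hℓ : ℓ.Prime := Fact.out
  have : CharZero E := charZero_of_injective_algebraMap (algebraMap F E).injective
  have n0 : 0 < ℓ ^ k := pow_pos hℓ.pos k
  have := NeZero.mk n0.ne'
  have := NeZero.mk hs.ne_zero
  have hsn : Nat.Coprime s (ℓ ^ k) := ((Nat.coprime_primes hs hℓ).2 hsl).pow_right k
  obtain ⟨μ, hμ⟩ := sc_prim hE n0
  obtain ⟨δ₀, h₀, hρ₀⟩ := hρ0
  have hζs : PadicInt.toZModPow k ζ ^ s = 1 := by rw [← map_pow, hζ.pow_eq_one, map_one]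
  let r : (E ≃ₐ[F] E) → ZMod (ℓ ^ k) := fun g => AddChar.zmodChar s hζs (ρ g)
  have hle : U' ≤ U := fun g hg => ((hU' g).1 hg).1
  have hr1 : ∀ g ∈ U', r g = 1 := fun g hg => by
    simp only [r, ((hU' g).1 hg).2, AddChar.map_zero_eq_one]
  have hn : ∀ δ ∈ U, ∀ g ∈ U', δ * g * δ⁻¹ ∈ U' := fun δ hδ g hg => (hU' _).2
    ⟨U.mul_mem (U.mul_mem hδ (hle hg)) (U.inv_mem hδ), by rw [hρ.conj hδ (hle hg), ((hU' g).1 hg).2]⟩
  have hc : ∀ δ ∈ U, ∀ δ' ∈ U, δ * δ' * δ⁻¹ * δ'⁻¹ ∈ U' := fun δ hδ δ' hδ' => by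
    have h1 := U.mul_mem (U.mul_mem hδ hδ') (U.inv_mem hδ)
    exact (hU' _).2 ⟨U.mul_mem h1 (U.inv_mem hδ'), by
      rw [hρ.1 _ h1 _ (U.inv_mem hδ'), hρ.conj hδ hδ', hρ.inv hδ', add_neg_cancel]⟩
  obtain ⟨b, hb⟩ : ∃ b, b * (r δ₀ - 1) = 1 := by
    have h1 : IsPrimitiveRoot (ζ ^ (ρ δ₀).val) s := hζ.pow_of_coprime _
      (Nat.coprime_of_lt_prime (by rwa [Ne, ZMod.val_eq_zero]) (ZMod.val_lt _) hs).symm
    have h3 : ζ ^ (ρ δ₀).val - 1 ∣ (s : ℤ_[ℓ]) := by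
      have h4 : ζ ^ (ρ δ₀).val - 1 ∣ ∑ j ∈ Finset.range s, ((ζ ^ (ρ δ₀).val) ^ j - 1) :=
        Finset.dvd_sum fun j _ => sub_one_dvd_pow_sub_one _ j
      rw [Finset.sum_sub_distrib, h1.geom_sum_eq_zero hs.one_lt] at h4
      simpa using h4
    have h4 := map_dvd (PadicInt.toZModPow k) h3
    rw [map_natCast, map_sub, map_one, map_pow] at h4
    exact (isUnit_of_dvd_unit h4 ((ZMod.isUnit_iff_coprime s _).2 hsn)).exists_left_inv
  let ρu : U →* (ZMod (ℓ ^ k))ˣ := MonoidHom.toHomUnits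
    { toFun := fun g => r g
      map_one' := hr1 1 U'.one_mem
      map_mul' := fun g h => by
        simp only [r, Subgroup.coe_mul, hρ.1 _ g.2 _ h.2, AddChar.map_add_eq_mul] }
  have hρu : ∀ g : U, (ρu g : ZMod (ℓ ^ k)) = r g := fun g => rfl
  let χ := hμ.autToPow F
  let ψ : U →* (ZMod (ℓ ^ k))ˣ := χ.comp U.subtype / ρu
  have hψ : ∀ g : U, ψ g = χ g / ρu g := fun g => rfl
  let U₀ : Subgroup (E ≃ₐ[F] E) := ψ.ker.map U.subtype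
  have mem₀ : ∀ g : U, (g : E ≃ₐ[F] E) ∈ U₀ ↔ ψ g = 1 := fun g =>
    (Subgroup.mem_map_iff_mem U.subtype_injective).trans MonoidHom.mem_ker
  have hle₀ : U₀ ≤ U := Subgroup.map_subtype_le _
  have hU₀ : ∀ g ∈ U', g μ = μ → g ∈ U₀ := fun g hg h => (mem₀ ⟨g, hle hg⟩).2 (by
    have h1 : w1e hμ 1 = μ := by rw [← Nat.cast_one, AddChar.zmodChar_apply', pow_one]
    have h3 : χ g = 1 := Units.ext (w1e_inj hμ (by
      rw [← mul_one (χ g : ZMod (ℓ ^ k)), ← w1e_map, Units.val_one, h1, h]))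
    have h4 : ρu ⟨g, hle hg⟩ = 1 := Units.ext (hr1 g hg)
    rw [hψ, h4, h3, div_one])
  have hn₀ : ∀ u ∈ U, ∀ w ∈ U₀, u * w * u⁻¹ ∈ U₀ := fun u hu w hw => by
    have h1 := (mem₀ ((⟨u, hu⟩ : U) * (⟨w, hle₀ hw⟩ : U) * (⟨u, hu⟩ : U)⁻¹)).2 (by
      rw [map_mul, map_mul, (mem₀ ⟨w, hle₀ hw⟩).1 hw, mul_one, map_inv, mul_inv_cancel])
    exact h1
  have oU' := hρ.ker_open hU hU'
  have oU₀ : IsOpen (U₀ : Set (E ≃ₐ[F] E)) := by
    obtain ⟨W, -, oW, hW⟩ := exists_open_fix (F := F) {μ} (Set.finite_singleton μ)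
    exact Subgroup.isOpen_mono (H₁ := U' ⊓ W) (fun g hg => hU₀ g hg.1 (hW μ rfl g hg.2)) (oU'.inter oW)
  obtain ⟨γ₀, hγ₀⟩ : ∃ γ₀ : U, ∀ δ : U, ∃ j : ℕ, ψ γ₀ ^ j = ψ δ := by
    have := ZMod.isCyclic_units_of_prime_pow ℓ hℓ h2 k
    obtain ⟨⟨_, γ₀, rfl⟩, h⟩ := IsCyclic.exists_monoid_generator (α := ψ.range)
    refine ⟨γ₀, fun δ => ?_⟩
    obtain ⟨j, hj⟩ := h ⟨_, δ, rfl⟩
    exact ⟨j, congrArg Subtype.val hj⟩
  obtain ⟨c, hc2, hcψ⟩ : ∃ c : ℕ, 2 ≤ c ∧ (c : ZMod (ℓ ^ k)) = ψ γ₀ :=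
    ⟨(ψ γ₀ : ZMod (ℓ ^ k)).val + 2 * ℓ ^ k, by omega, by simp⟩
  let := towerAlg hle₀
  have := numberField_fixedField U hU
  have := numberField_fixedField U₀ oU₀
  obtain ⟨hG, -, res, -, hres, hker⟩ := tower oU₀ hle₀ hn₀
  obtain ⟨X, hX1, hX2, hX3⟩ := w1u_units (fixedField U) (fixedField U₀) ⟨i, (fix_iff_mem U i).1 hfi⟩
    (Subtype.ext hi) (by
      rw [← Module.finrank_mul_finrank ℚ F, finrank_fixedField U hU]
      exact h6.trans (Nat.le_mul_of_pos_left _ Module.finrank_pos)) (res γ₀) (k := k) hℓ hc2 (by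
      have h1 : ψ γ₀ ^ orderOf (res γ₀) = 1 := by
        rw [← map_pow, ← mem₀, ← hker, map_pow, pow_orderOf_eq_one]
      rw [← ZMod.natCast_eq_zero_iff, Nat.cast_sub (Nat.one_le_pow _ _ (by omega)), Nat.cast_pow, hcψ,
        ← Units.val_pow_eq_pow_val, h1]
      simp)
  let a : (E ≃ₐ[F] E) → ℕ := fun δ => ((χ δ⁻¹ : ZMod (ℓ ^ k)) * r δ).val
  have ha : ∀ δ, (χ δ : ZMod (ℓ ^ k)) * a δ = r δ := fun δ => by
    rw [ZMod.natCast_zmod_val, ← mul_assoc, ← Units.val_mul, ← map_mul, mul_inv_cancel, map_one, Units.val_one, one_mul]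
  have fx : ∀ x : fixedField U₀, Fix U₀ (x : E) := fun x => (fix_iff_mem U₀ _).2 x.2
  have x0 : ∀ x ∈ X, (x : E) ≠ 0 := fun x hx h => (hX2 x hx).1 (Subtype.ext h)
  have he : ∀ x ∈ X, ∀ δ ∈ U, ∃ y, Fix U₀ y ∧ IsOfFinOrder (δ⁻¹ (x : E) / ((x : E) ^ a δ * y ^ ℓ ^ k)) := by
    intro x hx δ hδ
    obtain ⟨y, hy⟩ := (hX2 x hx).2.2.2
    have h1 := MonoidHom.isOfFinOrder (algebraMap (fixedField U₀) E).toMonoidHom hy
    change IsOfFinOrder (algebraMap (fixedField U₀) E _) at h1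
    rw [map_div₀, map_mul, map_pow, map_pow] at h1
    change IsOfFinOrder ((res γ₀ x : E) / ((x : E) ^ c * (y : E) ^ ℓ ^ k)) at h1
    rw [hres] at h1
    obtain ⟨j, hj⟩ := hγ₀ (⟨δ, hδ⟩⁻¹)
    obtain ⟨y', hy', h3⟩ := w1m_iter (U₀ := U₀) (fun w hw => by simpa using hn₀ _ (U.inv_mem γ₀.2) w hw) (fx y) h1
      (x0 x hx) j
    have h4 : δ⁻¹ (x : E) = ((γ₀ : E ≃ₐ[F] E) ^ j) x := by
      have h5 : (((γ₀ ^ j)⁻¹ * ⟨δ, hδ⟩⁻¹ : U) : E ≃ₐ[F] E) ∈ U₀ := by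
        rw [mem₀, map_mul, map_inv, map_pow, hj, inv_mul_cancel]
      conv_rhs => rw [← fx x _ h5, ← AlgEquiv.mul_apply]
      simp
    have h5 : a δ = c ^ j % ℓ ^ k := by
      rw [← ZMod.val_natCast, Nat.cast_pow, hcψ, ← Units.val_pow_eq_pow_val, hj, hψ, map_inv ρu, div_inv_eq_mul]
      rfl
    refine ⟨x ^ (c ^ j / ℓ ^ k) * y', fun g hg => by rw [map_mul, map_pow, fx x g hg, hy' g hg], ?_⟩
    rwa [h4, h5, mul_pow, ← mul_assoc, ← pow_mul, ← pow_add, Nat.mod_add_div']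
  have hu : ∀ x ∈ X, ∀ A : ValuationSubring E, A.valuation (x : E) = 1 := by
    intro x hx A
    have h1 : (x : E) ∈ A := mem_of_isIntegral A ((hX2 x hx).2.1.map (algebraMap (fixedField U₀) E).toIntAlgHom)
    have h3 : (x : E)⁻¹ ∈ A := mem_of_isIntegral A ((hX2 x hx).2.2.1.map (algebraMap (fixedField U₀) E).toIntAlgHom)
    rw [← A.valuation_le_one_iff] at h1 h3
    rw [map_inv₀, inv_le_one₀ (zero_lt_iff.2 ((map_ne_zero _).2 (x0 x hx)))] at h3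
    exact le_antisymm h1 h3
  choose z hz using fun x : fixedField U₀ => sc_root hE n0 (x : E)
  have z0 : ∀ x ∈ X, z x ≠ 0 := fun x hx h => x0 x hx (by rw [← hz, h, zero_pow n0.ne'])
  choose! η hη using fun x (hx : x ∈ X) => w1c_char hμ hle hn hc hU₀ r hr1 a (fun δ _ => ha δ) h₀ (z0 x hx)
    (by rw [hz]; exact fx x) (fun A p _ => by rw [hz]; exact hu x hx A) (by rw [hz]; exact he x hx)
  refine ⟨X.image η, fun e he => ?_, ?_⟩
  · obtain ⟨x, hx, rfl⟩ := Finset.mem_image.1 he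
    obtain ⟨h1, h3, h4, h5, -⟩ := hη x hx
    exact ⟨h1, h3, h4, fun A p hA hp => h5 A p hA fun h => hp
      ((Nat.prime_dvd_prime_iff_eq hA.1 hℓ).1 (hA.1.dvd_of_dvd_pow h))⟩
  · rw [Finset.card_image_of_injOn]
    · exact hX1
    intro x hx x' hx' hxx
    obtain ⟨y, hy, h1⟩ := he x hx δ₀ h₀
    obtain ⟨y', hy', h1'⟩ := he x' hx' δ₀ h₀
    have hw : (z x / z x') ^ ℓ ^ k = (x : E) / x' := by rw [div_pow, hz, hz]
    have fxx : Fix U₀ ((x : E) / x') := fun g hg => by rw [map_div₀, fx x g hg, fx x' g hg]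
    obtain ⟨y₁, hy₁, h3⟩ := w1c_inj hμ (V := U' ⊓ U₀) (δ₀ := δ₀) (a := a δ₀) (b := b) (by rw [ha]; exact hb)
      (z := z x / z x') (y := y / y') (div_ne_zero (z0 x hx) (z0 x' hx')) (fun g hg => by rw [hw]; exact fxx g hg.2)
      (fun g hg => by rw [map_div₀, hy g hg.2, hy' g hg.2]) (by
        rw [hw]
        refine Eq.mpr (congrArg IsOfFinOrder ?_) (w1m_div h1 h1')
        rw [map_div₀, div_pow, div_pow, div_mul_div_comm, div_div_div_comm]) (fun g hg => by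
        rw [map_div₀, (hη x hx).2.2.2.2 g hg.1, (hη x' hx').2.2.2.2 g hg.1, hxx,
          mul_div_mul_left _ _ (w1c_ne (w1e_fin hμ _))])
    rw [hw] at h3
    obtain ⟨y₂, hy₂, h4, -⟩ := pow_descend (U := U₀) (U' := U' ⊓ U₀) (oU'.inter oU₀) inf_le_right (m := ℓ ^ k) (by
      refine Nat.Coprime.coprime_dvd_left ?_ hsn
      let ρ' : U₀ →* Multiplicative (ZMod s) := MonoidHom.mk' (fun g => Multiplicative.ofAdd (ρ g)) fun g h => by
        rw [Subgroup.coe_mul, hρ.1 _ (hle₀ g.2) _ (hle₀ h.2), ofAdd_add]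
      have h5 : (U' ⊓ U₀).subgroupOf U₀ = ρ'.ker := by
        ext g
        rw [Subgroup.mem_subgroupOf, Subgroup.mem_inf, hU', MonoidHom.mem_ker]
        exact ⟨fun h => ofAdd_eq_one.2 h.1.2, fun h => ⟨⟨hle₀ g.2, ofAdd_eq_one.1 h⟩, g.2⟩⟩
      rw [Subgroup.relIndex, h5, Subgroup.index_ker]
      simpa using ρ'.range.card_subgroup_dvd_card) (div_ne_zero (x0 x hx) (x0 x' hx')) fxx hy₁ h3
    refine hX3 x hx x' hx' ⟨y₂, (fix_iff_mem U₀ _).1 hy₂⟩ ?_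
    refine (Function.Injective.isOfFinOrder_iff (f := (algebraMap (fixedField U₀) E).toMonoidHom)
      (algebraMap (fixedField U₀) E).injective).1 ?_
    change IsOfFinOrder (algebraMap (fixedField U₀) E _)
    rw [map_div₀, map_div₀, map_pow]
    exact h4

end Crest.Agent.R18
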